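import Crest.Agent.R231.D.Poly

/-! R231, block D: Birkhoff homotopy.  `H (u, γ) t = gs (γ (z/N)) (γ ((z+u)/N)) (v/u)` if `v ≤ u` and `γ t` otherwise, where
`z = ⌊N t⌋`, `v = fract (N t)`; level `γ.T`.  Joint continuity on the closed pieces `z/N ≤ t ≤ (z+u)/N`,
`(z+u)/N ≤ t ≤ (z+1)/N`; at `u = 0` by squeezing (`ρ (gs x y w) x ≤ ρ x y ≤ T u / N`). -/

set_option autoImplicit false
set_option linter.unusedVariables false
set_option linter.unusedSectionVars false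
open Set
open scoped Classical

noncomputable section
namespace Crest.Agent.R231
namespace Setup
variable {n : ℕ} (G : Setup n) (N : ℕ) [NeZero N]

theorem b1_glue {f : ℝ → M n} {L a b c : ℝ}
    (h1 : ∀ s ∈ Icc a b, ∀ t ∈ Icc a b, G.ρ (f s) (f t) ≤ L * |s - t|)
    (h2 : ∀ s ∈ Icc b c, ∀ t ∈ Icc b c, G.ρ (f s) (f t) ≤ L * |s - t|) :
    ∀ s ∈ Icc a c, ∀ t ∈ Icc a c, G.ρ (f s) (f t) ≤ L * |s - t| := by
  intro s hs t ht
  wlog h : s ≤ t generalizing s t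
  · rw [G.ρ_comm, abs_sub_comm]; exact this t ht s hs (le_of_not_ge h)
  rcases le_total t b with k | k
  · exact h1 s ⟨hs.1, h.trans k⟩ t ⟨ht.1, k⟩
  rcases le_total b s with k' | k'
  · exact h2 s ⟨k', hs.2⟩ t ⟨k, ht.2⟩
  have k1 := h1 s ⟨hs.1, k'⟩ b ⟨hs.1.trans k', le_rfl⟩
  have k2 := h2 b ⟨le_rfl, k.trans ht.2⟩ t ⟨k, ht.2⟩
  have k3 := G.ρ_tri (f s) (f b) (f t)
  rw [abs_of_nonpos (by linarith)] at k1 k2 ⊢
  linarith

/-- one piece of the Birkhoff homotopy -/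
def b1p (g : ℝ → M n) (u z v : ℝ) : M n := G.gs (g z) (g (z + max u v)) (v / max u v)

def b1 (g : ℝ → M n) (u τ : ℝ) : M n := G.b1p g u (⌊τ⌋ : ℤ) (Int.fract τ)

theorem b1_shift (g : ℝ → M n) (u τ : ℝ) (k : ℤ) : G.b1 (fun τ => g (τ + k)) u τ = G.b1 g u (τ + k) := by
  simp only [b1, b1p, Int.floor_add_intCast, Int.fract_add_intCast, Int.cast_add, add_right_comm]

theorem b1_lt {g : ℝ → M n} {L : ℝ} (hg : ∀ s t, G.ρ (g s) (g t) ≤ L * |s - t|) (h0 : 0 ≤ L) (hL : L < G.δ)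
    (z : ℝ) {μ : ℝ} (hμ : μ ∈ Icc (0 : ℝ) 1) : G.ρ (g z) (g (z + μ)) ≤ L * μ ∧ G.ρ (g z) (g (z + μ)) < G.δ := by
  have := hg z (z + μ)
  rw [sub_add_cancel_left, abs_neg, abs_of_nonneg hμ.1] at this
  exact ⟨this, this.trans_lt ((mul_le_of_le_one_right h0 hμ.2).trans_lt hL)⟩

theorem b1p_ge {g : ℝ → M n} {L : ℝ} (hg : ∀ s t, G.ρ (g s) (g t) ≤ L * |s - t|) (h0 : 0 ≤ L) (hL : L < G.δ)
    (z : ℝ) {u v : ℝ} (h : u ≤ v) (hv : v ∈ Icc (0 : ℝ) 1) : G.b1p g u z v = g (z + v) := by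
  have k := (G.b1_lt hg h0 hL z hv).2
  rw [b1p, max_eq_right h]
  rcases eq_or_ne v 0 with rfl | e
  · rw [zero_div, G.gs_zero _ _ k, add_zero]
  · rw [div_self e, G.gs_one _ _ k]

theorem b1p_zero {g : ℝ → M n} {L : ℝ} (hg : ∀ s t, G.ρ (g s) (g t) ≤ L * |s - t|) (h0 : 0 ≤ L) (hL : L < G.δ)
    (z : ℝ) {u : ℝ} (hu : u ∈ Icc (0 : ℝ) 1) : G.b1p g u z 0 = g z := by
  rw [b1p, max_eq_left hu.1, zero_div, G.gs_zero _ _ (G.b1_lt hg h0 hL z hu).2]

theorem b1_lip {g : ℝ → M n} {L : ℝ} (hg : ∀ s t, G.ρ (g s) (g t) ≤ L * |s - t|) (h0 : 0 ≤ L) (hL : L < G.δ)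
    {u : ℝ} (hu : u ∈ Icc (0 : ℝ) 1) (s t : ℝ) : G.ρ (G.b1 g u s) (G.b1 g u t) ≤ L * |s - t| := by
  have h1 : ∀ z : ℝ, ∀ s ∈ Icc (0 : ℝ) 1, ∀ t ∈ Icc (0 : ℝ) 1,
      G.ρ (G.b1p g u z s) (G.b1p g u z t) ≤ L * |s - t| := fun z => by
    refine G.b1_glue (b := u) (fun s hs t ht => ?_) fun s hs t ht => ?_
    · obtain ⟨k1, k2⟩ := G.b1_lt hg h0 hL z hu
      rw [b1p, b1p, max_eq_left hs.2, max_eq_left ht.2, G.ρ_gs _ _ _ _ k2
        ⟨div_nonneg hs.1 hu.1, div_le_one_of_le₀ hs.2 hu.1⟩ ⟨div_nonneg ht.1 hu.1, div_le_one_of_le₀ ht.2 hu.1⟩,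
        ← sub_div, abs_div, abs_of_nonneg hu.1]
      refine (mul_le_mul_of_nonneg_left k1 (div_nonneg (abs_nonneg _) hu.1)).trans ?_
      have : |s - t| / u * u ≤ |s - t| := by
        rcases eq_or_ne u 0 with e | e
        · rw [e, mul_zero]; exact abs_nonneg _
        · rw [div_mul_cancel₀ _ e]
      nlinarith
    · rw [G.b1p_ge hg h0 hL z hs.1 ⟨hu.1.trans hs.1, hs.2⟩, G.b1p_ge hg h0 hL z ht.1 ⟨hu.1.trans ht.1, ht.2⟩]
      simpa using hg (z + s) (z + t)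
  have h2 : ∀ z : ℤ, ∀ s ∈ Icc (z : ℝ) (z + 1), G.b1 g u s = G.b1p g u z (s - z) := fun z s hs => by
    rcases hs.2.eq_or_lt with e | e
    · rw [e, add_sub_cancel_left, G.b1p_ge hg h0 hL z hu.2 ⟨zero_le_one, le_rfl⟩, b1, ← Int.cast_one (R := ℝ),
        ← Int.cast_add, Int.floor_intCast, Int.fract_intCast, G.b1p_zero hg h0 hL _ hu]
    · have : ⌊s⌋ = z := Int.floor_eq_iff.2 ⟨hs.1, e⟩
      rw [b1, Int.fract, this]
  have h3 : ∀ z : ℤ, ∀ s ∈ Icc (z : ℝ) (z + 1), ∀ t ∈ Icc (z : ℝ) (z + 1),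
      G.ρ (G.b1 g u s) (G.b1 g u t) ≤ L * |s - t| := fun z s hs t ht => by
    rw [h2 z s hs, h2 z t ht]
    simpa using h1 z (s - z) ⟨by linarith [hs.1], by linarith [hs.2]⟩ (t - z) ⟨by linarith [ht.1], by linarith [ht.2]⟩
  refine G.lip_of_local one_pos h0 (fun s t h => ?_) s t
  have h4 := h3 (⌊min s t⌋ + 1)
  rw [Int.cast_add, Int.cast_one] at h4
  have k1 := Int.floor_le (min s t)
  have k2 := Int.lt_floor_add_one (min s t)
  have k3 := min_le_left s t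
  have k4 := min_le_right s t
  have k5 := abs_lt.1 h
  have k6 := min_choice s t
  exact G.b1_glue (h3 ⌊min s t⌋) h4 s ⟨by linarith, by rcases k6 with e | e <;> linarith⟩ t
    ⟨by linarith, by rcases k6 with e | e <;> linarith⟩

theorem b1_cont {X : Type} [TopologicalSpace X] {g : X → ℝ → M n} {u τ L : X → ℝ}
    (hc : Continuous fun q : X × ℝ => g q.1 q.2) (hu : Continuous u) (hτ : Continuous τ)
    (hg : ∀ x s t, G.ρ (g x s) (g x t) ≤ L x * |s - t|) (h0 : ∀ x, 0 ≤ L x) (hL : ∀ x, L x < G.δ)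
    (hu1 : ∀ x, u x ∈ Icc (0 : ℝ) 1) : Continuous fun x => G.b1 (g x) (u x) (τ x) := by
  have h1 : ContinuousOn (Function.uncurry fun x v => G.b1p (g x) (u x) (τ x - v) v) (univ ×ˢ Icc (0 : ℝ) 1) := by
    let a : X × ℝ → M n := fun q => g q.1 (τ q.1 - q.2)
    let b : X × ℝ → M n := fun q => g q.1 (τ q.1 - q.2 + max (u q.1) q.2)
    have ha : Continuous a := hc.comp (f := fun q : X × ℝ => (q.1, τ q.1 - q.2)) (by fun_prop)
    have hb : Continuous b := hc.comp (f := fun q : X × ℝ => (q.1, τ q.1 - q.2 + max (u q.1) q.2)) (by fun_prop)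
    have hab : ∀ q ∈ (univ : Set X) ×ˢ Icc (0 : ℝ) 1, G.ρ (a q) (b q) < G.δ := fun q hq =>
      (G.b1_lt (hg _) (h0 _) (hL _) _ ⟨le_max_of_le_right hq.2.1, max_le (hu1 _).2 hq.2.2⟩).2
    intro q hq
    change ContinuousWithinAt (fun q => G.gs (a q) (b q) (q.2 / max (u q.1) q.2)) _ _
    by_cases e : max (u q.1) q.2 = 0
    · have e1 : b q = a q := by simp only [a, b, e, add_zero]
      have e2 : G.gs (a q) (b q) (q.2 / max (u q.1) q.2) = a q := by rw [e, div_zero, G.gs_zero _ _ (hab q hq)]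
      rw [ContinuousWithinAt, e2, tendsto_iff_dist_tendsto_zero]
      have k : Continuous fun q' => G.cL * G.ρ (a q') (b q') + dist (a q') (a q) :=
        (continuous_const.mul (G.continuous_ρ.comp (ha.prodMk hb))).add (ha.dist continuous_const)
      refine squeeze_zero' (Filter.Eventually.of_forall fun _ => dist_nonneg) ?_
        ((k.tendsto' q 0 (by rw [e1, G.ρ_self]; simp)).mono_left nhdsWithin_le_nhds)
      filter_upwards [self_mem_nhdsWithin] with p hp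
      have w : p.2 / max (u p.1) p.2 ∈ Icc (0 : ℝ) 1 := ⟨div_nonneg hp.2.1 (le_max_of_le_right hp.2.1),
        div_le_one_of_le₀ (le_max_right _ _) (le_max_of_le_right hp.2.1)⟩
      refine (dist_triangle _ (a p) _).trans (add_le_add_left ((G.dist_le _ _).trans ?_) _)
      rw [G.ρ_comm, G.ρ_gs_left (hab p hp) w]
      exact mul_le_mul_of_nonneg_left (mul_le_of_le_one_left (G.ρ_nonneg _ _) w.2) (zero_le_one.trans G.one_le_cL)
    · exact (G.gs_cont _ (hab q hq)).comp (f := fun q => (a q, b q, q.2 / max (u q.1) q.2))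
        (ha.continuousAt.prodMk (hb.continuousAt.prodMk (continuousAt_snd.div
          ((hu.comp continuous_fst).max continuous_snd).continuousAt e))).continuousWithinAt hab
  have h2 := (h1.comp_fract' fun x => by
    rw [G.b1p_zero (hg _) (h0 _) (hL _) _ (hu1 _), G.b1p_ge (hg _) (h0 _) (hL _) _ (hu1 _).2 ⟨zero_le_one, le_rfl⟩,
      sub_zero, sub_add_cancel]).comp (continuous_id.prodMk hτ)
  refine h2.congr fun x => ?_
  simp only [Function.comp, id, b1, Int.self_sub_fract]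

theorem exists_B1 : ∃ H : ℝ × G.Loop → G.Loop, ContinuousOn H (Icc 0 1 ×ˢ G.Lt (N * G.δ)) ∧
    (∀ γ ∈ G.Lt (N * G.δ), H (0, γ) = γ ∧ H (1, γ) = G.uL N (γ.T, G.nodes N γ)) ∧
    (∀ γ ∈ G.Lt (N * G.δ), ∀ u ∈ Icc (0 : ℝ) 1, (H (u, γ)).T = γ.T ∧
      (Even N → H (u, γ.shift (1 / 2)) = (H (u, γ)).shift (1 / 2))) ∧
    ∀ i (m : ℕ) b s, m * G.ℓ i < N * G.δ → ∀ u ∈ Icc (0 : ℝ) 1, H (u, G.geo i m b s) = G.geo i m b s := by
  have hN : (0 : ℝ) < N := Nat.cast_pos.2 (Nat.pos_of_ne_zero (NeZero.ne N))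
  let g : G.Loop → ℝ → M n := fun γ τ => γ.ev (τ / N)
  have hg : ∀ (γ : G.Loop) s t, G.ρ (g γ s) (g γ t) ≤ γ.T / N * |s - t| := fun γ s t =>
    (γ.lip _ _).trans_eq (by rw [← sub_div, abs_div, abs_of_pos hN]; ring)
  have hL : ∀ γ ∈ G.Lt (N * G.δ), γ.T / N < G.δ := fun γ h => (div_lt_iff₀' hN).2 h
  have hL0 : ∀ γ : G.Loop, 0 ≤ γ.T / N := fun γ => div_nonneg γ.T_nonneg hN.le
  let f : ℝ × G.Loop → ℝ → M n := fun p t => G.b1 (g p.2) p.1 (N * t)
  have hl : ∀ p ∈ Icc (0 : ℝ) 1 ×ˢ G.Lt (N * G.δ), G.IsLoop (mkC p.2.T (f p)) := by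
    rintro ⟨u, γ⟩ ⟨hu, h⟩
    refine ⟨γ.T_nonneg, fun t => ?_, fun s t => ?_⟩
    · have := G.b1_shift (g γ) u (N * t) N
      simp only [mkC_ev, f]
      rw [Int.cast_natCast] at this
      rw [mul_add, mul_one, ← this]
      congr 1
      ext1 τ
      simp only [g]
      rw [add_div, div_self hN.ne', γ.per]
    · refine (G.b1_lip (hg γ) (hL0 γ) (hL γ h) hu _ _).trans_eq ?_
      rw [← mul_sub, abs_mul, abs_of_pos hN, mkC_fst]; field_simp
  refine ⟨fun p => G.toLoop (mkC p.2.T (f p)), continuousOn_toLoop hl (continuous_T.comp continuous_snd).continuousOn ?_,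
    fun γ h => ⟨?_, ?_⟩, fun γ h u hu => ⟨toLoop_T (hl (u, γ) ⟨hu, h⟩), fun ⟨k, hk⟩ => ?_⟩, fun i m b s h u hu => ?_⟩
  · have := G.b1_cont (X := (Icc (0 : ℝ) 1 ×ˢ G.Lt (N * G.δ)) ×ˢ (univ : Set ℝ)) (g := fun p => g p.1.1.2)
      (u := fun p => p.1.1.1) (τ := fun p => N * p.1.2) (L := fun p => p.1.1.2.T / N)
      (continuous_ev.comp (f := fun q : ↥((Icc (0 : ℝ) 1 ×ˢ G.Lt (N * G.δ)) ×ˢ (univ : Set ℝ)) × ℝ =>
        (q.1.1.1.2, q.2 / N)) (by fun_prop)) (by fun_prop) (by fun_prop) (fun p => hg _) (fun p => hL0 _)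
      (fun p => hL _ p.2.1.2) fun p => p.2.1.1
    exact continuousOn_iff_continuous_domRestrict.2 this
  · have k := hl (0, γ) ⟨by simp, h⟩
    refine Loop.ext' (toLoop_T k) fun t => (toLoop_ev k t).trans ?_
    have := G.b1p_ge (hg γ) (hL0 γ) (hL γ h) (⌊N * t⌋ : ℤ) (Int.fract_nonneg (N * t))
      ⟨Int.fract_nonneg _, (Int.fract_lt_one _).le⟩
    rw [Int.floor_add_fract] at this
    refine this.trans ?_
    simp only [g]
    rw [mul_div_cancel_left₀ _ hN.ne']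
  · have k := hl (1, γ) ⟨by simp, h⟩
    have k2 := G.nodes_mem_UDom N h
    refine Loop.ext' ((toLoop_T k).trans (G.uL_T N k2).symm) fun t => (toLoop_ev k t).trans ?_
    rw [G.uL_ev N k2, poly, ← Int.cast_one (R := ZMod N), ← Int.cast_add]
    simp only [f, b1, b1p, g, nodes_intCast]
    rw [max_eq_left (Int.fract_lt_one _).le, div_one, Int.cast_add, Int.cast_one]
  · have k1 := hl (u, γ) ⟨hu, h⟩
    have k2 := hl (u, γ.shift (1 / 2)) ⟨hu, h⟩
    refine Loop.ext' ((toLoop_T k2).trans (toLoop_T k1).symm) fun t => (toLoop_ev k2 t).trans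
      (Eq.trans ?_ (toLoop_ev k1 (t + 1 / 2)).symm)
    have k3 : (N : ℝ) = k + k := by exact_mod_cast hk
    have := G.b1_shift (g γ) u (N * t) k
    simp only [f]
    rw [show (N : ℝ) * (t + 1 / 2) = N * t + (k : ℤ) by rw [Int.cast_natCast]; linarith, ← this]
    congr 1
    ext1 τ
    change γ.ev _ = γ.ev _
    congr 1
    rw [Int.cast_natCast]; field_simp; linarith
  · have k := hl (u, G.geo i m b s) ⟨hu, (geo_T i m b s).trans_lt h⟩
    refine Loop.ext' (toLoop_T k) fun t => (toLoop_ev k t).trans ?_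
    have v0 := Int.fract_nonneg (N * t)
    have v1 := (Int.fract_lt_one (N * t)).le
    have v2 := Int.floor_add_fract (N * t)
    simp only [f, b1, b1p, g, geo_ev]
    set v := Int.fract (N * t)
    set μ := max u v
    have m0 : 0 ≤ μ := le_max_of_le_right v0
    have m1 : μ ≤ 1 := max_le hu.2 v1
    have m2 : v / μ * μ = v := div_mul_cancel_of_imp fun e => le_antisymm (e ▸ le_max_right u v) v0
    have m3 : |sg b| = 1 := by cases b <;> simp [sg]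
    rw [(G.c_loc i _ _ ?_).2]
    · congr 1
      have : t = (⌊N * t⌋ + v / μ * μ) / N := by rw [m2, v2, mul_div_cancel_left₀ _ hN.ne']
      conv_rhs => rw [this]
      ring
    · rw [show sg b * m * (⌊N * t⌋ / N) + s - (sg b * m * ((⌊N * t⌋ + μ) / N) + s) = -(sg b * (m * μ / N)) by ring,
        abs_neg, abs_mul, m3, one_mul, abs_of_nonneg (by positivity), ← mul_div_assoc, div_lt_iff₀' hN]
      have := G.ℓ_pos i
      have : 0 ≤ m * G.ℓ i := by positivity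
      nlinarith

end Setup
end Crest.Agent.R231
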