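import Crest.Agent.R231.D.Poly

/-! R231, block D: reparametrisation of a polygon proportionally to arc length.
For `x ∈ Dom`, `l_k = ρ (x k) (x (k+1))`, `L = ∑ l_k ≤ √(en x)` (Cauchy-Schwarz), let `A x : ℝ → ℝ` be the continuous
monotone piecewise linear function with `A x 0 = 0` and slope `N l_z` on `[z/N, (z+1)/N]` (e.g. `∫_0^t N l_{⌊N s⌋} ds`, or
`∑_{k<N} l_k * clamp (N t - k)` on `[0,1]` and `A x (t+1) = A x t + L`); `ρ (poly x s) (poly x t) ≤ |A x s - A x t|`.
Put `R (u, T, x) t = poly x θ` for any `θ ∈ [⌊t⌋, ⌊t⌋+1]` with `A x θ = (1-u) A x t + u L t` (IVT; the point does not depend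
on the choice), level `(1-u) T + u √(en x)`; it is `((1-u) T + u L)`-Lipschitz.  Joint continuity: the relation
`{(u,x,t,θ)}` is closed with locally bounded `θ`, so argue with sequences/compactness (or: for `θ'` near `θ`,
`ρ (R ..) (poly x' θ) ≤ |A x' θ' - A x' θ|` and both sides converge).  For the nodes of a closed geodesic all `l_k` are equal, so
`A x t = L t` and `θ = t` works. -/

set_option autoImplicit false
set_option linter.unusedVariables false
set_option linter.unusedSectionVars false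
open Set
open scoped Classical

noncomputable section
namespace Crest.Agent.R231
namespace Setup
variable {n : ℕ} (G : Setup n) (N : ℕ) [NeZero N]

namespace B2
open MeasureTheory Filter Topology

/-- step functions -/
def stp (l : ZMod N → ℝ) (s : ℝ) : ℝ := N * l (⌊N * s⌋ : ℤ)

/-- their primitives -/
def prim (l : ZMod N → ℝ) (t : ℝ) : ℝ := ∫ s in (0 : ℝ)..t, stp N l s

theorem N_pos : (0 : ℝ) < N := Nat.cast_pos.2 (NeZero.pos N)

theorem stp_int (l : ZMod N → ℝ) (a b : ℝ) : IntervalIntegrable (stp N l) volume a b := by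
  have hm : Measurable (stp N l) :=
    ((measurable_of_countable fun z : ℤ => l z).comp
      (Int.measurable_floor.comp (measurable_const_mul _))).const_mul _
  refine (intervalIntegrable_const (c := N * ∑ k, |l k|)).mono_fun' hm.aestronglyMeasurable
    (Eventually.of_forall fun s => ?_)
  simp only [stp, norm_mul, Real.norm_eq_abs, Nat.abs_cast]
  exact mul_le_mul_of_nonneg_left
    (Finset.single_le_sum (f := fun k => |l k|) (fun _ _ => abs_nonneg _) (Finset.mem_univ _)) (N_pos N).le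

theorem stp_per (l : ZMod N → ℝ) : Function.Periodic (stp N l) 1 := fun s => by
  simp [stp, mul_add]

theorem prim_sub (l : ZMod N → ℝ) (s t : ℝ) : prim N l t - prim N l s = ∫ u in s..t, stp N l u :=
  intervalIntegral.integral_interval_sub_left (stp_int N l _ _) (stp_int N l _ _)

theorem prim_piece (l : ZMod N → ℝ) (z : ℤ) {u v : ℝ} (hu : 0 ≤ u) (huv : u ≤ v) (hv : v ≤ 1) :
    prim N l ((z + v) / N) - prim N l ((z + u) / N) = (v - u) * l z := by
  have hN := N_pos N
  rw [prim_sub, intervalIntegral.integral_congr_Ioo_of_le (g := fun _ => N * l z)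
    (div_le_div_of_nonneg_right (by linarith) hN.le) fun s hs => by
      have h1 := (div_lt_iff₀' hN).1 hs.1
      have h2 := (lt_div_iff₀' hN).1 hs.2
      rw [stp, Int.floor_eq_iff.2 ⟨by linarith, by linarith⟩]]
  simp only [intervalIntegral.integral_const, smul_eq_mul]
  field_simp
  ring

theorem prim_one (l : ZMod N → ℝ) : prim N l 1 = ∑ k, l k := by
  have h := Finset.sum_range_sub (fun j : ℕ => prim N l (j / N)) N
  simp only [div_self (N_pos N).ne', Nat.cast_zero, zero_div] at h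
  rw [show prim N l 0 = 0 from intervalIntegral.integral_same, sub_zero] at h
  rw [← h]
  refine Finset.sum_nbij' (fun j : ℕ => (j : ZMod N)) ZMod.val (fun _ _ => Finset.mem_univ _)
    (fun k _ => Finset.mem_range.2 (ZMod.val_lt k))
    (fun j hj => ZMod.val_cast_of_lt (Finset.mem_range.1 hj)) (fun k _ => ZMod.natCast_zmod_val k)
    fun j _ => ?_
  simpa using prim_piece N l j le_rfl zero_le_one le_rfl

theorem prim_add_one (l : ZMod N → ℝ) (t : ℝ) : prim N l (t + 1) = prim N l t + ∑ k, l k := by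
  rw [← prim_one, prim, (stp_per N l).intervalIntegral_add_eq_add 0 t (stp_int N l), zero_add]; rfl

theorem prim_int (l : ZMod N → ℝ) (z : ℤ) : prim N l z = z * ∑ k, l k := by
  have := (stp_per N l).intervalIntegral_add_zsmul_eq z 0 (stp_int N l)
  rw [← prim_one]
  simpa [prim] using this

theorem prim_lip {l : ZMod N → ℝ} {T : ℝ} (h : ∀ k, |N * l k| ≤ T) (s t : ℝ) :
    |prim N l s - prim N l t| ≤ T * |s - t| := by
  rw [prim_sub]
  exact intervalIntegral.norm_integral_le_of_norm_le_const (f := stp N l) fun u _ => h _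

theorem prim_const {l : ZMod N → ℝ} {c : ℝ} (h : ∀ k, N * l k = c) (t : ℝ) : prim N l t = c * t := by
  simp [prim, stp, h, mul_comm]

theorem prim_cont : Continuous fun p : (ZMod N → ℝ) × ℝ => prim N p.1 p.2 := by
  have e : ∀ l t, prim N l t = ∑ k, l k * prim N (Pi.single k 1) t := fun l t => by
    simp only [prim, ← intervalIntegral.integral_const_mul]
    rw [← intervalIntegral.integral_finset_sum fun k _ => (stp_int N _ _ _).const_mul _]
    congr 1
    funext s
    simp [stp, Pi.single_apply, mul_comm]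
  rw [show (fun p : (ZMod N → ℝ) × ℝ => prim N p.1 p.2) = _ from funext fun p => e p.1 p.2]
  exact continuous_finset_sum _ fun k _ => ((continuous_apply k).comp continuous_fst).mul
    ((intervalIntegral.continuous_primitive (stp_int N _) 0).comp continuous_snd)

theorem mem_range_prim (l : ZMod N → ℝ) {u : ℝ} (hu : u ∈ Icc (0 : ℝ) 1) (t : ℝ) :
    (1 - u) * prim N l t + u * ((∑ k, l k) * t) ∈ range (prim N l) := by
  have hc : Convex ℝ (range (prim N l)) :=
    (isPreconnected_range ((prim_cont N).comp (Continuous.prodMk_right l))).ordConnected.convex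
  refine hc (mem_range_self t) ?_ (sub_nonneg.2 hu.2) hu.1 (by ring)
  have := hc (mem_range_self (⌊t⌋ : ℝ)) (mem_range_self ((⌊t⌋ : ℝ) + 1))
    (sub_nonneg.2 (Int.fract_lt_one t).le) (Int.fract_nonneg t) (by ring)
  rw [prim_add_one, prim_int] at this
  convert this using 1
  simp only [smul_eq_mul, Int.fract]
  ring

/-- edge lengths -/
def el (x : ZMod N → M n) (k : ZMod N) : ℝ := G.ρ (x k) (x (k + 1))

theorem el_cont : Continuous (el G N) := continuous_pi fun k =>
  G.continuous_ρ.comp (f := fun x : ZMod N → M n => (x k, x (k + 1))) (by fun_prop)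

theorem poly_le {x : ZMod N → M n} (hx : x ∈ G.Dom N) (s t : ℝ) :
    G.ρ (G.poly N x s) (G.poly N x t) ≤ |prim N (el G N x) s - prim N (el G N x) t| := by
  have hN := N_pos N
  wlog hst : s ≤ t generalizing s t
  · rw [G.ρ_comm, abs_sub_comm]; exact this t s (le_of_not_ge hst)
  have piece : ∀ (z : ℤ) (s t : ℝ), z / N ≤ s → s ≤ t → t ≤ (z + 1) / N →
      G.ρ (G.poly N x s) (G.poly N x t) ≤ prim N (el G N x) t - prim N (el G N x) s :=
    fun z s t h1 h2 h3 => by
      have a1 := (div_le_iff₀' hN).1 h1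
      have a2 := (le_div_iff₀' hN).1 h3
      have a3 := mul_le_mul_of_nonneg_left h2 hN.le
      have es : s = (z + (N * s - z)) / N := by field_simp; ring
      have et : t = (z + (N * t - z)) / N := by field_simp; ring
      have hs : N * s - z ∈ Icc (0 : ℝ) 1 := ⟨by linarith, by linarith⟩
      have ht : N * t - z ∈ Icc (0 : ℝ) 1 := ⟨by linarith, by linarith⟩
      generalize N * s - z = u at es hs
      generalize N * t - z = v at et ht
      have huv : u ≤ v := by
        rw [es, et, div_le_div_iff_of_pos_right hN] at h2; linarith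
      rw [es, et, prim_piece N _ z hs.1 huv ht.2, G.poly_piece N hx z hs, G.poly_piece N hx z ht,
        G.ρ_gs _ _ _ _ (hx _) hs ht, abs_sub_comm, abs_of_nonneg (sub_nonneg.2 huv)]
      rfl
  have key : ∀ (z : ℤ) (m : ℕ) (s t : ℝ), z / N ≤ s → s ≤ t → t ≤ (z + m) / N →
      G.ρ (G.poly N x s) (G.poly N x t) ≤ prim N (el G N x) t - prim N (el G N x) s := by
    intro z m
    induction m with
    | zero =>
      intro s t h1 h2 h3
      rw [le_antisymm h2 (by simpa using h3.trans (by simpa using h1)), G.ρ_self, sub_self]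
    | succ m ih =>
      intro s t h1 h2 h3
      have p := fun s => piece (z + m) s t
      push_cast at p h3
      rw [← add_assoc] at h3
      rcases le_total t ((z + m) / N) with a | a
      · exact ih s t h1 h2 a
      rcases le_total ((z + m : ℝ) / N) s with b | b
      · exact p s b h2 h3
      linarith [G.ρ_tri (G.poly N x s) (G.poly N x ((z + m) / N)) (G.poly N x t), ih s _ h1 b le_rfl,
        p _ le_rfl a h3]
  rw [abs_sub_comm]
  refine (key ⌊N * s⌋ ⌈N * t - ⌊N * s⌋⌉₊ s t ((div_le_iff₀' hN).2 (Int.floor_le _)) hst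
    ((le_div_iff₀' hN).2 ?_)).trans (le_abs_self _)
  linarith [Nat.le_ceil (N * t - ⌊N * s⌋)]

/-- the polygon parametrised by arc length -/
def arc (x : ZMod N → M n) (y : ℝ) : M n := G.poly N x (Function.invFun (prim N (el G N x)) y)

theorem ρ_arc {x : ZMod N → M n} (hx : x ∈ G.Dom N) {y : ℝ} (hy : y ∈ range (prim N (el G N x))) (θ : ℝ) :
    G.ρ (arc G N x y) (G.poly N x θ) ≤ |y - prim N (el G N x) θ| := by
  have := poly_le G N hx (Function.invFun (prim N (el G N x)) y) θ
  rwa [Function.invFun_eq hy] at this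

theorem arc_prim {x : ZMod N → M n} (hx : x ∈ G.Dom N) (θ : ℝ) :
    arc G N x (prim N (el G N x) θ) = G.poly N x θ :=
  G.ρ_eq_zero (le_antisymm (by simpa using ρ_arc G N hx (mem_range_self θ) θ) (G.ρ_nonneg _ _))

/-- the arc length parameter -/
def par (u : ℝ) (x : ZMod N → M n) (t : ℝ) : ℝ :=
  (1 - u) * prim N (el G N x) t + u * ((∑ k, el G N x k) * t)

theorem par_cont : Continuous fun p : (ℝ × ℝ × (ZMod N → M n)) × ℝ => par G N p.1.1 p.1.2.2 p.2 := by
  have h : Continuous fun p : (ℝ × ℝ × (ZMod N → M n)) × ℝ => el G N p.1.2.2 :=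
    (el_cont G N).comp (by fun_prop)
  exact ((continuous_const.sub continuous_fst.fst).mul ((prim_cont N).comp (h.prodMk continuous_snd))).add
    (continuous_fst.fst.mul ((continuous_finset_sum _ fun k _ => (continuous_apply k).comp h).mul
      continuous_snd))

theorem sum_le_sqrt (x : ZMod N → M n) : ∑ k, el G N x k ≤ √(G.en N x) := by
  refine Real.le_sqrt_of_sq_le (sq_sum_le_card_mul_sum_sq.trans_eq ?_)
  rw [Finset.card_univ, ZMod.card]; rfl

theorem sqrt_le {p : ℝ × (ZMod N → M n)} (hp : p ∈ G.UDom N) : √(G.en N p.2) ≤ p.1 := by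
  have hN := N_pos N
  refine Real.sqrt_le_iff.2 ⟨(mul_nonneg hN.le (G.ρ_nonneg _ _)).trans (hp.2 0), ?_⟩
  refine (mul_le_mul_of_nonneg_left (Finset.sum_le_card_nsmul _ _ ((p.1 / N) ^ 2) fun k _ =>
    pow_le_pow_left₀ (G.ρ_nonneg _ _) ((le_div_iff₀' hN).2 (hp.2 k)) 2) hN.le).trans_eq ?_
  rw [Finset.card_univ, ZMod.card, nsmul_eq_mul]
  field_simp

theorem isLoop {u : ℝ} (hu : u ∈ Icc (0 : ℝ) 1) {p : ℝ × (ZMod N → M n)} (hp : p ∈ G.UDom N) :
    G.IsLoop (mkC ((1 - u) * p.1 + u * √(G.en N p.2)) fun t => arc G N p.2 (par G N u p.2 t)) := by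
  have hN := N_pos N
  have h0 := Real.sqrt_nonneg (G.en N p.2)
  have h1 := sub_nonneg.2 hu.2
  refine ⟨add_nonneg (mul_nonneg h1 (h0.trans (sqrt_le G N hp))) (mul_nonneg hu.1 h0), fun t => ?_,
    fun s t => ?_⟩
  · obtain ⟨θ, hθ⟩ := mem_range_prim N (el G N p.2) hu t
    have e : par G N u p.2 (t + 1) = prim N (el G N p.2) (θ + 1) := by
      rw [prim_add_one, hθ, par, prim_add_one]; ring
    simp only [mkC_ev]
    rw [e, par, ← hθ, arc_prim G N hp.1, arc_prim G N hp.1, G.poly_per]
  · obtain ⟨θ, hθ⟩ := mem_range_prim N (el G N p.2) hu t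
    simp only [mkC_ev, mkC_fst]
    rw [par, par, ← hθ, arc_prim G N hp.1]
    refine (ρ_arc G N hp.1 (mem_range_prim N _ hu s) θ).trans ?_
    have a := prim_lip N (l := el G N p.2) (T := p.1) (fun k => by
      rw [el, abs_of_nonneg (mul_nonneg hN.le (G.ρ_nonneg _ _))]; exact hp.2 k) s t
    have b : 0 ≤ ∑ k, el G N p.2 k := Finset.sum_nonneg fun _ _ => G.ρ_nonneg _ _
    rw [hθ, show ∀ a b c : ℝ, (1 - u) * a + u * (c * s) - ((1 - u) * b + u * (c * t)) =
      (1 - u) * (a - b) + u * (c * (s - t)) from fun _ _ _ => by ring]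
    refine (abs_add_le _ _).trans ?_
    rw [abs_mul, abs_mul, abs_mul, abs_of_nonneg h1, abs_of_nonneg hu.1, abs_of_nonneg b]
    nlinarith [mul_le_mul_of_nonneg_left a h1, mul_le_mul_of_nonneg_left
      (mul_le_mul_of_nonneg_right (sum_le_sqrt G N p.2) (abs_nonneg (s - t))) hu.1]

theorem arc_cont : ContinuousOn (fun p : (ℝ × ℝ × (ZMod N → M n)) × ℝ =>
    arc G N p.1.2.2 (par G N p.1.1 p.1.2.2 p.2)) ((Icc 0 1 ×ˢ G.UDom N) ×ˢ univ) := fun p hp => by
  obtain ⟨θ, hθ⟩ := mem_range_prim N (el G N p.1.2.2) hp.1.1 p.2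
  have h1 : ContinuousWithinAt (fun q : (ℝ × ℝ × (ZMod N → M n)) × ℝ => G.poly N q.1.2.2 θ)
      ((Icc 0 1 ×ˢ G.UDom N) ×ˢ univ) p :=
    ((G.continuousOn_poly N).comp (f := fun q : (ℝ × ℝ × (ZMod N → M n)) × ℝ => (q.1.2.2, θ))
      (by fun_prop) fun q hq => ⟨hq.1.2.1, mem_univ _⟩) p hp
  have h2 : Continuous fun q : (ℝ × ℝ × (ZMod N → M n)) × ℝ =>
      G.cL * |par G N q.1.1 q.1.2.2 q.2 - prim N (el G N q.1.2.2) θ| :=
    continuous_const.mul ((par_cont G N).sub ((prim_cont N).comp
      (((el_cont G N).comp (by fun_prop)).prodMk continuous_const))).abs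
  have h3 := (h2.tendsto p).mono_left (nhdsWithin_le_nhds (s := (Icc 0 1 ×ˢ G.UDom N) ×ˢ univ))
  rw [par, ← hθ, sub_self, abs_zero, mul_zero] at h3
  rw [ContinuousWithinAt, par, ← hθ, arc_prim G N hp.1.2.1]
  refine h1.tendsto.congr_dist (squeeze_zero' (Eventually.of_forall fun _ => dist_nonneg)
    (eventually_mem_nhdsWithin.mono fun q hq => ?_) h3)
  rw [dist_comm]
  exact (G.dist_le _ _).trans (mul_le_mul_of_nonneg_left
    (ρ_arc G N hq.1.2.1 (mem_range_prim N _ hq.1.1 _) θ) (zero_le_one.trans G.one_le_cL))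

end B2

theorem exists_B2 : ∃ (π : (ZMod N → M n) → G.Loop) (R : ℝ × ℝ × (ZMod N → M n) → G.Loop),
    ContinuousOn π (G.Dom N) ∧ (∀ x ∈ G.Dom N, (π x).T = √(G.en N x)) ∧
    ContinuousOn R (Icc 0 1 ×ˢ G.UDom N) ∧
    (∀ p ∈ G.UDom N, R (0, p) = G.uL N p ∧ R (1, p) = π p.2 ∧ ∀ u ∈ Icc (0 : ℝ) 1, (R (u, p)).T ≤ p.1) ∧
    ∀ i (m : ℕ) b s, m * G.ℓ i < N * G.δ → ∀ u ∈ Icc (0 : ℝ) 1,
      R (u, m * G.ℓ i, G.nodes N (G.geo i m b s)) = G.geo i m b s := by
  have hN := B2.N_pos N
  set R : ℝ × ℝ × (ZMod N → M n) → G.Loop := fun q => G.toLoop (mkC ((1 - q.1) * q.2.1 + q.1 * √(G.en N q.2.2))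
    fun t => B2.arc G N q.2.2 (B2.par G N q.1 q.2.2 t)) with hR
  have hc : ContinuousOn R (Icc 0 1 ×ˢ G.UDom N) :=
    continuousOn_toLoop (fun q hq => B2.isLoop G N hq.1 hq.2)
      (((continuous_const.sub continuous_fst).mul continuous_snd.fst).add
        (continuous_fst.mul ((G.continuous_en N).comp continuous_snd.snd).sqrt)).continuousOn
      (B2.arc_cont G N)
  have hD : ∀ x ∈ G.Dom N, (N * G.δ, x) ∈ G.UDom N := fun x hx =>
    ⟨hx, fun k => mul_le_mul_of_nonneg_left (hx k).le hN.le⟩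
  have h0 : ∀ p ∈ G.UDom N, ∀ u : ℝ, (1 - u) * p.1 + u * √(G.en N p.2) = p.1 →
      (∀ t, B2.par G N u p.2 t = B2.prim N (B2.el G N p.2) t) → R (u, p) = G.uL N p := fun p hp u a b => by
    simp only [hR, uL, a, b, B2.arc_prim G N hp.1]
  refine ⟨fun x => R (1, N * G.δ, x), R, hc.comp (by fun_prop) fun x hx => ⟨by simp, hD x hx⟩,
    fun x hx => ?_, hc, fun p hp => ⟨h0 p hp 0 (by simp) fun t => by simp [B2.par], by simp [hR],
      fun u hu => ?_⟩, fun i m b s h u hu => ?_⟩
  · rw [hR, toLoop_T (B2.isLoop G N (by simp) (hD x hx))]; simp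
  · rw [hR, toLoop_T (B2.isLoop G N hu hp)]
    nlinarith [mul_le_mul_of_nonneg_left (B2.sqrt_le G N hp) hu.1]
  · have hT := geo_T i m b s
    have hp := G.nodes_mem_UDom N (hT.trans_lt h)
    rw [hT] at hp
    have hm : 0 ≤ m * G.ℓ i := mul_nonneg (Nat.cast_nonneg m) (G.ℓ_pos i).le
    have hl : ∀ k, N * B2.el G N (G.nodes N (G.geo i m b s)) k = m * G.ℓ i := fun k => by
      obtain ⟨z, rfl⟩ := ZMod.intCast_surjective k
      have e : G.ℓ i * |sg b * m * (z / N) + s - (sg b * m * ((z + 1 : ℤ) / N) + s)| = m * G.ℓ i / N := by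
        rw [show sg b * m * (z / N) + s - (sg b * m * ((z + 1 : ℤ) / N) + s) = -sg b * (m / N) by
          push_cast; ring, abs_mul, abs_neg, show |sg b| = 1 by cases b <;> simp [sg],
          abs_of_nonneg (by positivity)]
        ring
      rw [B2.el, ← Int.cast_one (R := ZMod N), ← Int.cast_add, nodes_intCast, nodes_intCast, geo_ev, geo_ev,
        (G.c_loc i _ _ (by rw [e, div_lt_iff₀' hN]; exact h)).1, e]
      field_simp
    rw [h0 _ hp u (by simp only [G.en_nodes_geo N i m b s h, Real.sqrt_sq hm]; ring) fun t => by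
      simp only [B2.par, ← B2.prim_one, B2.prim_const N hl]; ring, G.uL_nodes_geo N i m b s h]

end Setup
end Crest.Agent.R231
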