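import Crest.Agent.R231.D.B1
import Crest.Agent.R231.D.B2

/-! R231, block D: the full Birkhoff homotopy (concatenation of `B1` and `B2`). -/

set_option autoImplicit false
set_option linter.unusedVariables false
set_option linter.unusedSectionVars false
open Set
open scoped Classical

noncomputable section
namespace Crest.Agent.R231
namespace Setup
variable {n : ℕ} (G : Setup n) (N : ℕ) [NeZero N]

theorem exists_BH : ∃ (π : (ZMod N → M n) → G.Loop) (H : ℝ × G.Loop → G.Loop),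
    ContinuousOn π (G.Dom N) ∧ (∀ x ∈ G.Dom N, (π x).T = √(G.en N x)) ∧
    ContinuousOn H (Icc 0 1 ×ˢ G.Lt (N * G.δ)) ∧
    (∀ γ ∈ G.Lt (N * G.δ), H (0, γ) = γ ∧ H (1, γ) = π (G.nodes N γ) ∧ ∀ u ∈ Icc (0 : ℝ) 1, (H (u, γ)).T ≤ γ.T) ∧
    ∀ i (m : ℕ) b s, m * G.ℓ i < N * G.δ → ∀ u ∈ Icc (0 : ℝ) 1, H (u, G.geo i m b s) = G.geo i m b s := by
  obtain ⟨H, h1, h2, h3, h4⟩ := G.exists_B1 N
  obtain ⟨π, R, r1, r2, r3, r4, r5⟩ := G.exists_B2 N
  have m1 : ∀ u ∈ Icc (0 : ℝ) 1, min (2 * u) 1 ∈ Icc (0 : ℝ) 1 := fun u hu =>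
    ⟨le_min (by linarith [hu.1]) zero_le_one, min_le_right _ _⟩
  have m2 : ∀ u ∈ Icc (0 : ℝ) 1, max (2 * u - 1) 0 ∈ Icc (0 : ℝ) 1 := fun u hu =>
    ⟨le_max_right _ _, max_le (by linarith [hu.2]) zero_le_one⟩
  refine ⟨π, fun p => if p.1 ≤ 1 / 2 then H (min (2 * p.1) 1, p.2) else R (max (2 * p.1 - 1) 0, p.2.T, G.nodes N p.2),
    r1, r2, continuousOn_iff_continuous_domRestrict.2 ?_, fun γ h => ⟨?_, ?_, fun u hu => ?_⟩,
    fun i m b s h u hu => ?_⟩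
  · refine Continuous.if_le (α := ℝ) (f := fun p : ↥(Icc (0 : ℝ) 1 ×ˢ G.Lt (N * G.δ)) => p.1.1) (g := fun _ => 1 / 2)
      (h1.comp_continuous (by fun_prop) fun p => ⟨m1 _ p.2.1, p.2.2⟩)
      (r3.comp_continuous (Continuous.prodMk (by fun_prop) ((continuous_T.comp (by fun_prop)).prodMk
        ((G.continuous_nodes N).comp (by fun_prop)))) fun p => ⟨m2 _ p.2.1, G.nodes_mem_UDom N p.2.2⟩)
      (by fun_prop) continuous_const fun p e => ?_
    rw [e, show min (2 * (1 / 2) : ℝ) 1 = 1 by norm_num, show max (2 * (1 / 2) - 1 : ℝ) 0 = 0 by norm_num,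
      (h2 _ p.2.2).2, (r4 _ (G.nodes_mem_UDom N p.2.2)).1]
  · simpa using (h2 γ h).1
  · have := (r4 _ (G.nodes_mem_UDom N h)).2.1
    norm_num
    exact this
  · dsimp only
    split_ifs
    · exact (h3 γ h _ (m1 u hu)).1.le
    · exact (r4 _ (G.nodes_mem_UDom N h)).2.2 _ (m2 u hu)
  · dsimp only
    split_ifs
    · exact h4 i m b s h _ (m1 u hu)
    · rw [geo_T]; exact r5 i m b s h _ (m2 u hu)

end Setup
end Crest.Agent.R231
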