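import Crest.Agent.R231.Loop

/-! R231, block D: geodesic polygons.  On `[z/N, (z+1)/N]` (`z : ℤ`) `poly x t = gs (x z) (x (z+1)) (N t - z)` (also at the
right end point, by `gs_one`, `gs_zero`); continuity by the locally finite closed cover, Lipschitz bounds by `ρ_gs` and
`lip_of_local`/triangle inequality. -/

set_option autoImplicit false
set_option linter.unusedVariables false
set_option linter.unusedSectionVars false
open Set
open scoped Classical

noncomputable section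
namespace Crest.Agent.R231
namespace Setup
variable {n : ℕ} (G : Setup n) (N : ℕ) [NeZero N]

theorem N_pos : (0 : ℝ) < N := by exact_mod_cast NeZero.pos N

theorem per_val {X : Type} {f : ℝ → X} (hf : Function.Periodic f 1) (z : ℤ) (s : ℝ) :
    f (((z : ZMod N).val : ℝ) / N + s) = f (z / N + s) := by
  have h1 : (((z : ZMod N).val : ℤ) : ℝ) = ((z % N : ℤ) : ℝ) := by rw [ZMod.val_intCast]
  have h2 : ((z % N + N * (z / N) : ℤ) : ℝ) = z := by rw [Int.emod_add_mul_ediv]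
  have h3 := N_pos N
  rw [← hf.int_mul (z / N)]
  congr 1
  push_cast at h1 h2 ⊢
  rw [h1, ← h2]
  field_simp
  ring

theorem exists_piece (t : ℝ) : ∃ (z : ℤ) (u : ℝ), 0 ≤ u ∧ u < 1 ∧ t = (z + u) / N :=
  ⟨⌊N * t⌋, Int.fract (N * t), Int.fract_nonneg _, Int.fract_lt_one _, by
    rw [Int.floor_add_fract, mul_div_cancel_left₀ _ (N_pos N).ne']⟩

theorem nodes_intCast (γ : G.Loop) (z : ℤ) : G.nodes N γ (z : ZMod N) = γ.ev (z / N) := by
  have h := per_val N γ.per z 0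
  rwa [add_zero, add_zero] at h

theorem nodes_succ (γ : G.Loop) (z : ℤ) : G.nodes N γ ((z : ZMod N) + 1) = γ.ev ((z + 1) / N) := by
  simpa using G.nodes_intCast N γ (z + 1)

theorem ρ_nodes_le (γ : G.Loop) (k : ZMod N) : G.ρ (G.nodes N γ k) (G.nodes N γ (k + 1)) ≤ γ.T / N := by
  obtain ⟨z, rfl⟩ := ZMod.intCast_surjective k
  rw [G.nodes_intCast, G.nodes_succ]
  refine (γ.lip _ _).trans_eq ?_
  rw [← sub_div, sub_add_cancel_left, abs_div, abs_neg, abs_one, abs_of_pos (N_pos N), mul_one_div]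

theorem nodes_mem_Dom {γ : G.Loop} (h : γ.T < N * G.δ) : G.nodes N γ ∈ G.Dom N := by
  exact fun k => (G.ρ_nodes_le N γ k).trans_lt (by rwa [div_lt_iff₀' (N_pos N)])

theorem en_nodes_le (γ : G.Loop) : G.en N (G.nodes N γ) ≤ γ.T ^ 2 := by
  have h := N_pos N
  calc G.en N (G.nodes N γ) ≤ N * ∑ _k : ZMod N, (γ.T / N) ^ 2 :=
        mul_le_mul_of_nonneg_left (Finset.sum_le_sum fun k _ =>
          pow_le_pow_left₀ (G.ρ_nonneg _ _) (G.ρ_nodes_le N γ k) 2) h.le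
    _ = γ.T ^ 2 := by
        rw [Finset.sum_const, Finset.card_univ, ZMod.card, nsmul_eq_mul]
        field_simp

theorem continuous_nodes : Continuous (G.nodes N) := by
  exact continuous_pi fun k => continuous_ev.comp (continuous_id.prodMk continuous_const)

theorem continuous_edge (k : ZMod N) : Continuous fun x : ZMod N → M n => G.ρ (x k) (x (k + 1)) :=
  G.continuous_ρ.comp (f := fun x : ZMod N → M n => (x k, x (k + 1))) (by fun_prop)

theorem isOpen_Dom : IsOpen (G.Dom N) := by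
  rw [Dom, ofPred_forall]
  exact isOpen_iInter_of_finite fun k => isOpen_lt (G.continuous_edge N k) continuous_const

theorem continuous_en : Continuous (G.en N) := by
  exact continuous_const.mul (continuous_finsetSum _ fun k _ => (G.continuous_edge N k).pow 2)

theorem en_nonneg (x : ZMod N → M n) : 0 ≤ G.en N x := by
  exact mul_nonneg (N_pos N).le (Finset.sum_nonneg fun _ _ => sq_nonneg _)

theorem ρ_sq_le_en (x : ZMod N → M n) (k : ZMod N) : N * G.ρ (x k) (x (k + 1)) ^ 2 ≤ G.en N x := by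
  exact mul_le_mul_of_nonneg_left (Finset.single_le_sum (f := fun k => G.ρ (x k) (x (k + 1)) ^ 2)
    (fun _ _ => sq_nonneg _) (Finset.mem_univ k)) (N_pos N).le

theorem geo_edge (i : G.ι) (m : ℕ) (b : Bool) (s : ℝ) (z : ℤ) :
    G.ℓ i * |sg b * m * (z / N) + s - (sg b * m * ((z + 1) / N) + s)| = m * G.ℓ i / N := by
  have hN := N_pos N
  have h1 : sg b * m * (z / N) + s - (sg b * m * ((z + 1) / N) + s) = -(sg b * (m / N)) := by ring
  have h2 : |sg b| = 1 := by cases b <;> simp [sg]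
  rw [h1, abs_neg, abs_mul, h2, one_mul, abs_of_nonneg (by positivity)]
  ring

theorem geo_edge_lt (i : G.ι) (m : ℕ) (b : Bool) (s : ℝ) (h : m * G.ℓ i < N * G.δ) (z : ℤ) :
    G.ℓ i * |sg b * m * (z / N) + s - (sg b * m * ((z + 1) / N) + s)| < G.δ := by
  rwa [G.geo_edge, div_lt_iff₀' (N_pos N)]

theorem en_nodes_geo (i : G.ι) (m : ℕ) (b : Bool) (s : ℝ) (h : m * G.ℓ i < N * G.δ) :
    G.en N (G.nodes N (G.geo i m b s)) = (m * G.ℓ i) ^ 2 := by
  have hN := N_pos N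
  have h1 : ∀ k, G.ρ (G.nodes N (G.geo i m b s) k) (G.nodes N (G.geo i m b s) (k + 1)) =
      m * G.ℓ i / N := fun k => by
    obtain ⟨z, rfl⟩ := ZMod.intCast_surjective k
    rw [G.nodes_intCast, G.nodes_succ, geo_ev, geo_ev, (G.c_loc i _ _ (G.geo_edge_lt N i m b s h z)).1,
      G.geo_edge]
  simp only [en, h1]
  rw [Finset.sum_const, Finset.card_univ, ZMod.card, nsmul_eq_mul]
  field_simp

theorem poly_per (x : ZMod N → M n) : Function.Periodic (G.poly N x) 1 := by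
  intro t
  simp only [poly, mul_add, mul_one, Int.floor_add_natCast, Int.fract_add_natCast]
  simp

theorem poly_piece {x : ZMod N → M n} (hx : x ∈ G.Dom N) (z : ℤ) {u : ℝ} (hu : u ∈ Icc (0 : ℝ) 1) :
    G.poly N x ((z + u) / N) = G.gs (x z) (x (z + 1)) u := by
  have hN := N_pos N
  rw [poly, mul_div_cancel₀ _ hN.ne']
  rcases hu.2.eq_or_lt with rfl | h1
  · have e : (z : ℝ) + 1 = ((z + 1 : ℤ) : ℝ) := by push_cast; rfl
    rw [e, Int.floor_intCast, Int.fract_intCast, G.gs_zero _ _ (hx _), G.gs_one _ _ (hx _)]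
    push_cast
    rfl
  · rw [Int.floor_intCast_add, Int.fract_intCast_add, Int.floor_eq_zero_iff.2 ⟨hu.1, h1⟩,
      Int.fract_eq_self.2 ⟨hu.1, h1⟩, add_zero]

theorem poly_node {x : ZMod N → M n} (hx : x ∈ G.Dom N) (z : ℤ) : G.poly N x (z / N) = x z := by
  have h := G.poly_piece N hx z (u := 0) ⟨le_rfl, zero_le_one⟩
  rwa [add_zero, G.gs_zero _ _ (hx _)] at h

theorem ρ_two {x : ZMod N → M n} (hx : x ∈ G.Dom N) (z : ℤ) {u v : ℝ} (hu : u ∈ Icc (0 : ℝ) 1)
    (hv : v ∈ Icc (0 : ℝ) 1) : G.ρ (G.poly N x ((z + u) / N)) (G.poly N x ((z + 1 + v) / N)) ≤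
      (1 - u) * G.ρ (x z) (x (z + 1)) + v * G.ρ (x (z + 1)) (x (z + 1 + 1)) := by
  have h := G.poly_piece N hx (z + 1) hv
  push_cast at h
  rw [h, G.poly_piece N hx z hu, ← G.ρ_gs_right (hx _) hu, ← G.ρ_gs_left (hx _) hv]
  exact G.ρ_tri _ _ _

theorem poly_lip {x : ZMod N → M n} (hx : x ∈ G.Dom N) {L : ℝ} (hL : ∀ k, N * G.ρ (x k) (x (k + 1)) ≤ L)
    (s t : ℝ) : G.ρ (G.poly N x s) (G.poly N x t) ≤ L * |s - t| := by
  have hN := N_pos N
  have hL0 : 0 ≤ L := (mul_nonneg hN.le (G.ρ_nonneg _ _)).trans (hL 0)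
  have hL' : ∀ k, G.ρ (x k) (x (k + 1)) ≤ L / N := fun k => by
    rw [le_div_iff₀' hN]; exact hL k
  have key : ∀ s t : ℝ, s ≤ t → t - s < 1 / N → G.ρ (G.poly N x s) (G.poly N x t) ≤ L * (t - s) := by
    intro s t hst hd
    obtain ⟨z, u, hu0, hu1, rfl⟩ := exists_piece N s
    obtain ⟨v, rfl⟩ : ∃ v, t = (z + v) / N := ⟨N * t - z, by field_simp; ring⟩
    rw [← sub_div, add_sub_add_left_eq_sub] at hd ⊢
    rw [div_lt_div_iff_of_pos_right hN] at hd
    rw [div_le_div_iff_of_pos_right hN, add_le_add_iff_left] at hst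
    rcases le_total v 1 with hv | hv
    · rw [G.poly_piece N hx z ⟨hu0, hu1.le⟩, G.poly_piece N hx z ⟨hu0.trans hst, hv⟩,
        G.ρ_gs _ _ _ _ (hx _) ⟨hu0, hu1.le⟩ ⟨hu0.trans hst, hv⟩, abs_sub_comm,
        abs_of_nonneg (sub_nonneg.2 hst)]
      calc _ ≤ (v - u) * (L / N) := mul_le_mul_of_nonneg_left (hL' _) (sub_nonneg.2 hst)
        _ = _ := by ring
    · have h := G.ρ_two N hx z ⟨hu0, hu1.le⟩ (v := v - 1) ⟨by linarith, by linarith⟩
      rw [add_add_sub_cancel] at h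
      calc _ ≤ _ := h
        _ ≤ (1 - u) * (L / N) + (v - 1) * (L / N) :=
          add_le_add (mul_le_mul_of_nonneg_left (hL' _) (by linarith))
            (mul_le_mul_of_nonneg_left (hL' _) (by linarith))
        _ = _ := by ring
  refine G.lip_of_local (η := 1 / N) (by positivity) hL0 (fun s t h => ?_) s t
  rcases le_total s t with hst | hst
  · rw [abs_sub_comm, abs_of_nonneg (sub_nonneg.2 hst)] at h ⊢
    exact key s t hst h
  · rw [abs_of_nonneg (sub_nonneg.2 hst)] at h ⊢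
    rw [G.ρ_comm]
    exact key t s hst h

theorem continuousOn_poly :
    ContinuousOn (fun p : (ZMod N → M n) × ℝ => G.poly N p.1 p.2) (G.Dom N ×ˢ univ) := by
  have hN := N_pos N
  let A : ℤ → Set ((ZMod N → M n) × ℝ) := fun z => {p | N * p.2 ∈ Icc (z : ℝ) (z + 1)}
  have hA : ∀ z, IsClosed (A z) := fun z =>
    isClosed_Icc.preimage (f := fun p : (ZMod N → M n) × ℝ => N * p.2) (by fun_prop)
  have h1 : ∀ z, ContinuousOn (fun p : (ZMod N → M n) × ℝ => G.poly N p.1 p.2)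
      (G.Dom N ×ˢ univ ∩ A z) := fun z => by
    have h2 : Continuous fun p : (ZMod N → M n) × ℝ =>
        ((p.1 z, p.1 (z + 1), N * p.2 - z) : M n × M n × ℝ) := by fun_prop
    refine (G.gs_cont.comp h2.continuousOn fun p hp => hp.1.1 _).congr fun p hp => ?_
    have h3 := G.poly_piece N hp.1.1 z (u := N * p.2 - z) ⟨by linarith [hp.2.1], by linarith [hp.2.2]⟩
    rwa [add_sub_cancel, mul_div_cancel_left₀ _ hN.ne'] at h3
  intro p hp
  have h2 : ∀ z, ContinuousWithinAt (fun p : (ZMod N → M n) × ℝ => G.poly N p.1 p.2)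
      (G.Dom N ×ˢ univ ∩ A z) p := fun z => by
    by_cases h : p ∈ A z
    · exact h1 z p ⟨hp, h⟩
    · exact continuousWithinAt_of_notMem_closure fun h' =>
        h ((hA z).closure_subset_iff.2 inter_subset_right h')
  refine ((h2 (⌊N * p.2⌋ - 1)).union (h2 ⌊N * p.2⌋)).mono_of_mem_nhdsWithin ?_
  have h3 : IsOpen {q : (ZMod N → M n) × ℝ | N * q.2 ∈ Ioo ((⌊N * p.2⌋ : ℝ) - 1) (⌊N * p.2⌋ + 1)} :=
    isOpen_Ioo.preimage (f := fun p : (ZMod N → M n) × ℝ => N * p.2) (by fun_prop)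
  refine mem_nhdsWithin.2 ⟨_, h3, ⟨by linarith [Int.floor_le (N * p.2)], Int.lt_floor_add_one _⟩,
    fun q hq => ?_⟩
  rcases le_total (N * q.2) ⌊N * p.2⌋ with h | h
  · exact Or.inl ⟨hq.2, by push_cast; exact hq.1.1.le, by push_cast; linarith⟩
  · exact Or.inr ⟨hq.2, h, hq.1.2.le⟩

theorem poly_nodes_geo (i : G.ι) (m : ℕ) (b : Bool) (s : ℝ) (h : m * G.ℓ i < N * G.δ) (t : ℝ) :
    G.poly N (G.nodes N (G.geo i m b s)) t = (G.geo i m b s).ev t := by
  obtain ⟨z, u, hu0, hu1, rfl⟩ := exists_piece N t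
  rw [G.poly_piece N (G.nodes_mem_Dom N (by rwa [geo_T])) z ⟨hu0, hu1.le⟩, G.nodes_intCast, G.nodes_succ,
    geo_ev, geo_ev, geo_ev, (G.c_loc i _ _ (G.geo_edge_lt N i m b s h z)).2]
  congr 1
  ring

/-- admissible pairs (level, polygon) -/
def UDom : Set (ℝ × (ZMod N → M n)) := {p | p.2 ∈ G.Dom N ∧ ∀ k, N * G.ρ (p.2 k) (p.2 (k + 1)) ≤ p.1}

/-- the uniform polygon as a loop of level `T` -/
def uL (p : ℝ × (ZMod N → M n)) : G.Loop := G.toLoop (mkC p.1 (G.poly N p.2))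

theorem isLoop_uL {p : ℝ × (ZMod N → M n)} (h : p ∈ G.UDom N) : G.IsLoop (mkC p.1 (G.poly N p.2)) :=
  ⟨(mul_nonneg (N_pos N).le (G.ρ_nonneg _ _)).trans (h.2 0), G.poly_per N p.2, G.poly_lip N h.1 h.2⟩

theorem uL_T {p : ℝ × (ZMod N → M n)} (h : p ∈ G.UDom N) : (G.uL N p).T = p.1 := by
  exact toLoop_T (G.isLoop_uL N h)

theorem uL_ev {p : ℝ × (ZMod N → M n)} (h : p ∈ G.UDom N) (t : ℝ) : (G.uL N p).ev t = G.poly N p.2 t := by
  exact toLoop_ev (G.isLoop_uL N h) t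

theorem continuousOn_uL : ContinuousOn (G.uL N) (G.UDom N) := by
  refine continuousOn_toLoop (T := fun p : ℝ × (ZMod N → M n) => p.1) (f := fun p => G.poly N p.2)
    (fun p hp => G.isLoop_uL N hp) continuous_fst.continuousOn ?_
  exact (G.continuousOn_poly N).comp (f := fun q : (ℝ × (ZMod N → M n)) × ℝ => (q.1.2, q.2))
    (by fun_prop) fun q hq => ⟨hq.1.1, mem_univ _⟩

theorem nodes_mem_UDom {γ : G.Loop} (h : γ.T < N * G.δ) : (γ.T, G.nodes N γ) ∈ G.UDom N := by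
  exact ⟨G.nodes_mem_Dom N h, fun k => (le_div_iff₀' (N_pos N)).1 (G.ρ_nodes_le N γ k)⟩

theorem nodes_uL {p : ℝ × (ZMod N → M n)} (h : p ∈ G.UDom N) : G.nodes N (G.uL N p) = p.2 := by
  funext k
  obtain ⟨z, rfl⟩ := ZMod.intCast_surjective k
  rw [G.nodes_intCast, G.uL_ev N h, G.poly_node N h.1]

theorem uL_nodes_geo (i : G.ι) (m : ℕ) (b : Bool) (s : ℝ) (h : m * G.ℓ i < N * G.δ) :
    G.uL N (m * G.ℓ i, G.nodes N (G.geo i m b s)) = G.geo i m b s := by
  have h1 := G.nodes_mem_UDom N (γ := G.geo i m b s) (by rwa [geo_T])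
  rw [geo_T] at h1
  exact Loop.ext' (by rw [G.uL_T N h1, geo_T]) fun t => by
    rw [G.uL_ev N h1, G.poly_nodes_geo N i m b s h]

/-- the nodes of the polygon shifted by `s` -/
def sh (s : ℝ) (x : ZMod N → M n) : ZMod N → M n := fun k => G.poly N x ((k.val : ℝ) / N + s)

theorem sh_intCast (s : ℝ) (x : ZMod N → M n) (z : ℤ) : G.sh N s x (z : ZMod N) = G.poly N x (z / N + s) := by
  exact per_val N (G.poly_per N x) z s

theorem sh_zero {x : ZMod N → M n} (hx : x ∈ G.Dom N) : G.sh N 0 x = x := by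
  funext k
  obtain ⟨z, rfl⟩ := ZMod.intCast_surjective k
  rw [G.sh_intCast, add_zero, G.poly_node N hx]

theorem sh_edge {x : ZMod N → M n} (hx : x ∈ G.Dom N) (s : ℝ) : ∃ (c : ZMod N) (u : ℝ), 0 ≤ u ∧ u < 1 ∧
    ∀ k, G.ρ (G.sh N s x k) (G.sh N s x (k + 1)) ≤
      (1 - u) * G.ρ (x (k + c)) (x (k + c + 1)) + u * G.ρ (x (k + c + 1)) (x (k + c + 1 + 1)) := by
  obtain ⟨c, u, hu0, hu1, rfl⟩ := exists_piece N s
  refine ⟨c, u, hu0, hu1, fun k => ?_⟩
  obtain ⟨z, rfl⟩ := ZMod.intCast_surjective k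
  have h1 := G.sh_intCast N ((c + u) / N) x (z + 1)
  have h2 := G.ρ_two N hx (z + c) ⟨hu0, hu1.le⟩ ⟨hu0, hu1.le⟩
  push_cast at h1 h2
  rw [h1, G.sh_intCast]
  convert h2 using 3 <;> ring

theorem sh_mem_Dom {x : ZMod N → M n} (hx : x ∈ G.Dom N) (s : ℝ) : G.sh N s x ∈ G.Dom N := by
  obtain ⟨c, u, hu0, hu1, h⟩ := G.sh_edge N hx s
  intro k
  have h1 := hx (k + c)
  have h2 := hx (k + c + 1)
  have h3 := h k
  nlinarith [mul_pos (sub_pos.2 hu1) (sub_pos.2 h1), mul_nonneg hu0 (sub_pos.2 h2).le]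

/-- write `s = (z+u)/N`; the new edges are `≤ (1-u) l_k + u l_{k+1}`; convexity of the square -/
theorem en_sh_le {x : ZMod N → M n} (hx : x ∈ G.Dom N) (s : ℝ) : G.en N (G.sh N s x) ≤ G.en N x := by
  obtain ⟨c, u, hu0, hu1, h⟩ := G.sh_edge N hx s
  refine mul_le_mul_of_nonneg_left ?_ (N_pos N).le
  have e1 := Equiv.sum_comp (Equiv.addRight c) fun k => G.ρ (x k) (x (k + 1)) ^ 2
  have e2 := Equiv.sum_comp (Equiv.addRight (c + 1)) fun k => G.ρ (x k) (x (k + 1)) ^ 2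
  simp only [Equiv.coe_addRight, ← add_assoc] at e1 e2
  calc _ ≤ ∑ k, ((1 - u) * G.ρ (x (k + c)) (x (k + c + 1)) ^ 2 +
        u * G.ρ (x (k + c + 1)) (x (k + c + 1 + 1)) ^ 2) := Finset.sum_le_sum fun k _ => by
        refine (pow_le_pow_left₀ (G.ρ_nonneg _ _) (h k) 2).trans ?_
        nlinarith [mul_nonneg (mul_nonneg hu0 (sub_pos.2 hu1).le) (sq_nonneg
          (G.ρ (x (k + c)) (x (k + c + 1)) - G.ρ (x (k + c + 1)) (x (k + c + 1 + 1))))]
    _ = _ := by
        rw [Finset.sum_add_distrib, ← Finset.mul_sum, ← Finset.mul_sum, e1, e2]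
        ring

theorem continuousOn_sh :
    ContinuousOn (fun p : ℝ × (ZMod N → M n) => G.sh N p.1 p.2) (univ ×ˢ G.Dom N) := by
  refine continuousOn_pi.2 fun k => ?_
  exact (G.continuousOn_poly N).comp
    (f := fun q : ℝ × (ZMod N → M n) => (q.2, (k.val : ℝ) / N + q.1)) (by fun_prop)
    fun q hq => ⟨hq.2, mem_univ _⟩

theorem nodes_shift_uL {p : ℝ × (ZMod N → M n)} (h : p ∈ G.UDom N) (s : ℝ) :
    G.nodes N ((G.uL N p).shift s) = G.sh N s p.2 := by
  funext k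
  exact G.uL_ev N h _

theorem sh_nodes_geo (i : G.ι) (m : ℕ) (b : Bool) (s u : ℝ) (h : m * G.ℓ i < N * G.δ) :
    G.sh N u (G.nodes N (G.geo i m b s)) = G.nodes N (G.geo i m b (s + sg b * m * u)) := by
  funext k
  rw [sh, G.poly_nodes_geo N i m b s h, nodes, geo_ev, geo_ev]
  congr 1
  ring

end Setup
end Crest.Agent.R231
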