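import Mathlib

/-! R231, block D: abstract gradient-like semiflows on a compact set (used by blocks D and GM).
`stay`: choose `r` with `cthickening (2r) K ⊆ U`; on the compact annulus `{x ∈ D | r ≤ infDist x K ≤ 2r, l ≤ f x ≤ l + e₁}`
the drop `f x - f (φ (1,x))` has a positive minimum `κ`; an orbit leaving `thickening (2r) K` from `thickening r K` crosses the
annulus between times `t₁ < t₂`, and drops by `≥ κ` if `t₂ - t₁ ≥ 1`, by `≥ r²` otherwise.  (`K = ∅`: take `U' = ∅`.)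
`descend`: uniform drop per unit time on a compact set. -/

set_option autoImplicit false
set_option linter.unusedVariables false
open Set

namespace Crest.Agent.R231

structure IsSemi {X : Type} [MetricSpace X] (D : Set X) (f : X → ℝ) (φ : ℝ × X → X) (Fx : Set X) : Prop where
  compact : IsCompact D
  cont_f : ContinuousOn f D
  cont : ContinuousOn φ (Ici 0 ×ˢ D)
  maps : ∀ x ∈ D, ∀ t, 0 ≤ t → φ (t, x) ∈ D
  zero : ∀ x ∈ D, φ (0, x) = x
  add : ∀ x ∈ D, ∀ s t, 0 ≤ s → 0 ≤ t → φ (s + t, x) = φ (s, φ (t, x))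
  anti : ∀ x ∈ D, ∀ t, 0 ≤ t → f (φ (t, x)) ≤ f x
  speed : ∀ x ∈ D, ∀ t, 0 ≤ t → dist (φ (t, x)) x ^ 2 ≤ t * (f x - f (φ (t, x)))
  strict : ∀ x ∈ D, f (φ (1, x)) = f x → x ∈ Fx

variable {X : Type} [MetricSpace X] {D : Set X} {f : X → ℝ} {φ : ℝ × X → X} {Fx : Set X}

theorem IsSemi.drop (h : IsSemi D f φ Fx) {C : Set X} (hC : IsClosed C) {a b : ℝ}
    (hF : ∀ x ∈ D ∩ C ∩ Fx, a ≤ f x → f x ≤ b → False) :
    ∃ κ, 0 < κ ∧ ∀ x ∈ D ∩ C, a ≤ f x → f x ≤ b → f (φ (1, x)) + κ ≤ f x := by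
  have h1 : IsClosed (D ∩ f ⁻¹' Icc a b) :=
    h.cont_f.preimage_isClosed_of_isClosed h.compact.isClosed isClosed_Icc
  have h2 : IsCompact (D ∩ f ⁻¹' Icc a b ∩ C) :=
    h.compact.of_isClosed_subset (h1.inter hC) fun x hx => hx.1.1
  have h3 : ContinuousOn (fun x => φ (1, x)) D :=
    h.cont.comp (continuous_const.prodMk continuous_id).continuousOn
      fun x hx => ⟨mem_Ici.2 zero_le_one, hx⟩
  have h4 : ContinuousOn (fun x => f x - f (φ (1, x))) D :=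
    h.cont_f.sub (h.cont_f.comp h3 fun x hx => h.maps x hx 1 zero_le_one)
  obtain ⟨κ, hκ, hκ'⟩ := h2.exists_forall_le' (a := 0) (h4.mono fun x hx => hx.1.1) fun x hx => by
    refine lt_of_le_of_ne (sub_nonneg.2 (h.anti x hx.1.1 1 zero_le_one)) fun h0 => ?_
    exact hF x ⟨⟨hx.1.1, hx.2⟩, h.strict x hx.1.1 (by linarith)⟩ hx.1.2.1 hx.1.2.2
  refine ⟨κ, hκ, fun x hx ha hb => ?_⟩
  have := hκ' x ⟨⟨hx.1, ha, hb⟩, hx.2⟩
  linarith

theorem IsSemi.anti' (h : IsSemi D f φ Fx) {x : X} (hx : x ∈ D) {s t : ℝ} (hs : 0 ≤ s) (hst : s ≤ t) :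
    f (φ (t, x)) ≤ f (φ (s, x)) := by
  have := h.add x hx (t - s) s (by linarith) hs
  rw [sub_add_cancel] at this
  rw [this]
  exact h.anti _ (h.maps x hx s hs) _ (by linarith)

theorem IsSemi.stay (h : IsSemi D f φ Fx) {K U : Set X} (hK : IsCompact K) (hU : IsOpen U) (hKU : K ⊆ U)
    {l e₁ : ℝ} (he : 0 < e₁) (hF : ∀ x ∈ D ∩ U ∩ Fx, l ≤ f x → f x ≤ l + e₁ → x ∈ K) :
    ∃ U', IsOpen U' ∧ K ⊆ U' ∧ U' ⊆ U ∧ ∃ e₀, 0 < e₀ ∧ e₀ ≤ e₁ ∧
      ∀ x ∈ D ∩ U', f x < l + e₀ → ∀ t, 0 ≤ t → φ (t, x) ∈ U ∨ f (φ (t, x)) < l := by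
  rcases K.eq_empty_or_nonempty with rfl | hne
  · exact ⟨∅, isOpen_empty, Subset.rfl, empty_subset _, e₁, he, le_rfl, fun x hx => hx.2.elim⟩
  obtain ⟨δ, hδ, hδU⟩ := hK.exists_thickening_subset_open hU hKU
  have hC : IsClosed {x : X | Metric.infDist x K = δ / 2} :=
    isClosed_eq (Metric.continuous_infDist_pt K) continuous_const
  obtain ⟨κ, hκ, hκ'⟩ := h.drop hC (a := l) (b := l + e₁) fun x hx ha hb => by
    have h1 : Metric.infDist x K = δ / 2 := hx.1.2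
    have h2 : x ∈ U := hδU ((Metric.mem_thickening_iff_infDist_lt hne).2 (by linarith))
    rw [Metric.infDist_zero_of_mem (hF x ⟨⟨hx.1.1, h2⟩, hx.2⟩ ha hb)] at h1
    linarith
  refine ⟨Metric.thickening (δ / 2) K, Metric.isOpen_thickening,
    Metric.self_subset_thickening (half_pos hδ) K,
    (Metric.thickening_mono (by linarith) K).trans hδU, min e₁ (min κ ((δ / 2) ^ 2)),
    by positivity, min_le_left _ _, fun x hx hfx t ht => ?_⟩
  have m1 := min_le_left e₁ (min κ ((δ / 2) ^ 2))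
  have m2 := (min_le_right e₁ _).trans (min_le_left κ ((δ / 2) ^ 2))
  have m3 := (min_le_right e₁ _).trans (min_le_right κ ((δ / 2) ^ 2))
  by_contra hcon
  rw [not_or, not_lt] at hcon
  obtain ⟨hU', hl⟩ := hcon
  have d0 : Metric.infDist (φ (0, x)) K < δ / 2 := by
    rw [h.zero x hx.1]
    exact (Metric.mem_thickening_iff_infDist_lt hne).1 hx.2
  have d1 : δ ≤ Metric.infDist (φ (t, x)) K :=
    not_lt.1 fun h' => hU' (hδU ((Metric.mem_thickening_iff_infDist_lt hne).2 h'))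
  have hc : ContinuousOn (fun s : ℝ => Metric.infDist (φ (s, x)) K) (Icc 0 t) :=
    (Metric.continuous_infDist_pt K).comp_continuousOn
      (h.cont.comp (continuous_id.prodMk continuous_const).continuousOn fun s hs => ⟨hs.1, hx.1⟩)
  obtain ⟨s, hs, hs'⟩ := intermediate_value_Icc ht hc
    (show δ / 2 ∈ Icc _ _ from ⟨d0.le, by linarith⟩)
  have hs' : Metric.infDist (φ (s, x)) K = δ / 2 := hs'
  have hy := h.maps x hx.1 s hs.1
  have a1 := h.anti x hx.1 s hs.1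
  have a2 := h.anti' hx.1 hs.1 hs.2
  have e := h.add x hx.1 (t - s) s (by linarith [hs.2]) hs.1
  rw [sub_add_cancel] at e
  rcases le_total 1 (t - s) with h1 | h1
  · have b1 := hκ' _ ⟨hy, hs'⟩ (by linarith) (by linarith)
    have b2 := h.anti' hy zero_le_one h1
    rw [← e] at b2
    linarith
  · have b1 := h.speed _ hy (t - s) (by linarith [hs.2])
    rw [← e] at b1
    have b2 := Metric.infDist_le_infDist_add_dist (x := φ (t, x)) (y := φ (s, x)) (s := K)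
    have b3 : (δ / 2) ^ 2 ≤ dist (φ (t, x)) (φ (s, x)) ^ 2 :=
      pow_le_pow_left₀ (by positivity) (by linarith) 2
    have b4 : (t - s) * (f (φ (s, x)) - f (φ (t, x))) ≤ f (φ (s, x)) - f (φ (t, x)) :=
      mul_le_of_le_one_left (by linarith) h1
    linarith

/-- every orbit starting below level `b` reaches, before a uniform time, the open set `V` or the level `< a`,
provided it stays in the closed set `C` as long as its level is `≥ a` and the fixed points of `C` in the strip lie in `V` -/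
theorem IsSemi.reach (h : IsSemi D f φ Fx) {V C : Set X} (hV : IsOpen V) (hC : IsClosed C) {a b : ℝ}
    (hF : ∀ x ∈ D ∩ C ∩ Fx, a ≤ f x → f x ≤ b → x ∈ V) :
    ∃ T, 0 ≤ T ∧ ∀ x ∈ D, f x ≤ b → (∀ t, 0 ≤ t → φ (t, x) ∈ C ∨ f (φ (t, x)) < a) →
      ∃ t ∈ Icc 0 T, φ (t, x) ∈ V ∨ f (φ (t, x)) < a := by
  obtain ⟨κ, hκ, hκ'⟩ := h.drop (hC.inter hV.isClosed_compl) (a := a) (b := b) fun x hx ha hb =>
    hx.1.2.2 (hF x ⟨⟨hx.1.1, hx.1.2.1⟩, hx.2⟩ ha hb)
  obtain ⟨N, hN⟩ := exists_nat_gt ((b - a) / κ)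
  rw [div_lt_iff₀ hκ] at hN
  refine ⟨N, Nat.cast_nonneg _, fun x hx hb hC' => ?_⟩
  by_contra hcon
  have h1 : ∀ t ∈ Icc (0 : ℝ) N, φ (t, x) ∉ V ∧ a ≤ f (φ (t, x)) := fun t ht =>
    ⟨fun h' => hcon ⟨t, ht, Or.inl h'⟩, not_lt.1 fun h' => hcon ⟨t, ht, Or.inr h'⟩⟩
  have h2 : ∀ n : ℕ, n ≤ N → f (φ (n, x)) ≤ b - n * κ := by
    intro n
    induction n with
    | zero => intro _; simpa [h.zero x hx] using hb
    | succ n ih =>
      intro hn
      have hn0 : (0 : ℝ) ≤ n := Nat.cast_nonneg _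
      have hn1 : (n : ℝ) ≤ N := by exact_mod_cast (by omega : n ≤ N)
      have i1 := ih (by omega)
      have i2 := h1 n ⟨hn0, hn1⟩
      have i3 := hκ' _ ⟨h.maps x hx n hn0, (hC' n hn0).resolve_right (not_lt.2 i2.2), i2.1⟩ i2.2
        ((h.anti x hx n hn0).trans hb)
      rw [← h.add x hx 1 n zero_le_one hn0] at i3
      push_cast
      rw [add_comm (n : ℝ) 1]
      linarith
  have := h2 N le_rfl
  have := (h1 N ⟨Nat.cast_nonneg _, le_rfl⟩).2
  linarith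

theorem IsSemi.descend (h : IsSemi D f φ Fx) {a b : ℝ} (hF : ∀ x ∈ D ∩ Fx, a ≤ f x → f x ≤ b → False) :
    ∃ T, 0 ≤ T ∧ ∀ x ∈ D, f x ≤ b → f (φ (T, x)) < a := by
  obtain ⟨T, hT, hT'⟩ := h.reach isOpen_empty isClosed_univ (a := a) (b := b) fun x hx ha hb =>
    hF x ⟨hx.1.1, hx.2⟩ ha hb
  refine ⟨T, hT, fun x hx hb => ?_⟩
  obtain ⟨t, ht, h1⟩ := hT' x hx hb fun t _ => Or.inl trivial
  exact (h.anti' hx ht.1 ht.2).trans_lt (h1.resolve_left id)

end Crest.Agent.R231
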